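import Vale.Agent.P143.Final

open MeasureTheory Filter Topology Vale.Agent.P143
open scoped unitInterval ENNReal

namespace Vale.Agent.Results.P143.CayleyFactor

universe u

/-- The free uniform spanning forest of every Cayley graph of every infinite finitely generated
group `Γ` is a `Γ`-factor of IID. -/
theorem result (Γ : Type u) [Group Γ] [Infinite Γ] (S : Set Γ) (hS : S.Finite)
    (hcl : Subgroup.closure S = ⊤) :
    ∃ Φ : (Γ → I) → Set (Sym2 Γ), Measurable Φ ∧
      (∀ U, Φ U ⊆ (cayleyGraph S).edgeSet) ∧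
      (∀ (γ : Γ) (U : Γ → I), Φ (fun x => U (γ⁻¹ * x)) = Sym2.map (γ * ·) '' Φ U) ∧
      IsFUSF (cayleyGraph S) (Measure.map Φ (iidLabels Γ)) :=
  cayley_main hS hcl

end Vale.Agent.Results.P143.CayleyFactor
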