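import Vale.Agent.P143.Final

open MeasureTheory Filter Topology Vale.Agent.P143
open scoped unitInterval ENNReal

namespace Vale.Agent.Results.P143.FullFactorIID

universe u

/-- The free uniform spanning forest of every Cayley graph of every infinite finitely generated
group is a factor of IID, and the free uniform spanning forest is a graph factor of IID on every
unimodular random graph (with one and the same factor map). -/
theorem result :
    (∀ (Γ : Type u) [Group Γ] [Infinite Γ] (S : Set Γ), S.Finite → Subgroup.closure S = ⊤ →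
      ∃ Φ : (Γ → I) → Set (Sym2 Γ), Measurable Φ ∧
        (∀ U, Φ U ⊆ (cayleyGraph S).edgeSet) ∧
        (∀ (γ : Γ) (U : Γ → I), Φ (fun x => U (γ⁻¹ * x)) = Sym2.map (γ * ·) '' Φ U) ∧
        IsFUSF (cayleyGraph S) (Measure.map Φ (iidLabels Γ))) ∧
    (∃ Φ : SimpleGraph ℕ → (ℕ → I) → Set (Sym2 ℕ),
      Measurable (fun p : SimpleGraph ℕ × (ℕ → I) => Φ p.1 p.2) ∧
      (∀ G U, Φ G U ⊆ G.edgeSet) ∧
      (∀ (g : Equiv.Perm ℕ) (G : SimpleGraph ℕ) (U : ℕ → I),
        Φ (relabel g G) (fun x => U (g.symm x)) = Sym2.map g '' Φ G U) ∧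
      ∀ P : Measure (SimpleGraph ℕ × ℕ), IsUnimodular P →
        ∀ᵐ p ∂P, IsFUSF p.1 (Measure.map (Φ p.1) (iidLabels ℕ))) := by
  refine ⟨fun Γ _ _ S hS hcl => cayley_main hS hcl, ?_⟩
  obtain ⟨Φ, hm, hs, he, h⟩ := unimodular_main
  refine ⟨Φ, hm, hs, he, fun P hP => ?_⟩
  have := hP.prob
  exact h P (fun f hf hfe => hP.massTransport f hf fun g G x y => hfe g trivial G x y)
    hP.connected hP.locallyFinite

end Vale.Agent.Results.P143.FullFactorIID
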