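import Vale.Agent.P143.Final

open MeasureTheory Filter Topology Vale.Agent.P143
open scoped unitInterval ENNReal

namespace Vale.Agent.Results.P143.UnimodularFactor

/-- The free uniform spanning forest is a graph factor of IID on every unimodular random graph,
with one and the same factor map. -/
theorem result :
    ∃ Φ : SimpleGraph ℕ → (ℕ → I) → Set (Sym2 ℕ),
      Measurable (fun p : SimpleGraph ℕ × (ℕ → I) => Φ p.1 p.2) ∧
      (∀ G U, Φ G U ⊆ G.edgeSet) ∧
      (∀ (g : Equiv.Perm ℕ) (G : SimpleGraph ℕ) (U : ℕ → I),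
        Φ (relabel g G) (fun x => U (g.symm x)) = Sym2.map g '' Φ G U) ∧
      ∀ P : Measure (SimpleGraph ℕ × ℕ), IsUnimodular P →
        ∀ᵐ p ∂P, IsFUSF p.1 (Measure.map (Φ p.1) (iidLabels ℕ)) := by
  obtain ⟨Φ, hm, hs, he, h⟩ := unimodular_main
  refine ⟨Φ, hm, hs, he, fun P hP => ?_⟩
  have := hP.prob
  exact h P (fun f hf hfe => hP.massTransport f hf fun g G x y => hfe g trivial G x y)
    hP.connected hP.locallyFinite

end Vale.Agent.Results.P143.UnimodularFactor
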